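import Vale.Agent.P184.R2.H270M.MTop2
import Vale.Agent.P184.R2.H270M.Circ

/-!
# Traces of idempotents over `ℓ¹(G)` and displacement of elements of infinite order
-/

namespace Vale.Agent.Results.P184.Displacement

open MeasureTheory Vale.Agent.P184.Mv
open Vale.Agent.P184 (LocFinTorsion)
open Vale.Agent.P184.W (VanishesAt L1Bass Mild IsRelHyp)
open Vale.Agent.P184.H940 (SoftTor)

universe u v w

/-- The `ℓ¹`-Bass conjecture at the elements displaced by isometric actions on `CAT(0)` spaces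
and Banach spaces, by isometric cocycles over measure preserving actions, by commensurated
subsets, by exchanges of intervals and by circle diffeomorphisms. -/
theorem result :
    -- vanishing at the elements satisfying `LocMoves`, for arbitrary groups
    (∀ (G : Type u) [Group G] (x : G), LocMoves.{w} x → ¬ IsOfFinOrder x ∧ VanishesAt x) ∧
    -- homomorphisms
    (∀ (G : Type u) (K : Type v) [Group G] [Group K] (f : G →* K) (x : G),
      LocMoves.{w} (f x) → LocMoves.{w} x) ∧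
    -- isometric actions on `CAT(0)` spaces
    (∀ (G : Type u) (Y : Type w) [Group G] [MetricSpace Y] [MulAction G Y], CN Y →
      (∀ (g : G) (a b : Y), dist (g • a) (g • b) = dist a b) → ∀ (x : G) (o : Y),
        (∃ ε > 0, ∀ n : ℕ, ε * n ≤ dist o (x ^ n • o)) ∨
          (x • o ≠ o ∧ ∀ z : Y, dist o (x • o) ≤ dist z (x • z)) → LocMoves.{w} x) ∧
    -- isometric actions on Banach spaces
    (∀ (G : Type u) (E : Type w) [Group G] [NormedAddCommGroup E] [NormedSpace ℝ E]
      [MulAction G E] [StrictConvexSpace ℝ (StrongDual ℝ E)],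
      (∀ (g : G) (a b : E), dist (g • a) (g • b) = dist a b) → ∀ (x : G) (o : E),
        (∃ ε > 0, ∀ n : ℕ, ε * n ≤ dist o (x ^ n • o)) → LocMoves.{w} x) ∧
    -- commensurated subsets
    (∀ (G : Type u) (S : Type w) [Group G] [MulAction G S] (A : Set S),
      (∀ g : G, {s | ¬ (s ∈ A ↔ g • s ∈ A)}.Finite) → ∀ x : G,
        (∀ N : ℕ, ∃ n : ℕ, N < {s | ¬ (s ∈ A ↔ x ^ n • s ∈ A)}.ncard) ∨
          (¬ IsOfFinOrder x ∧ ∀ A' : Set S, {s | ¬ (s ∈ A ↔ s ∈ A')}.Finite →
            ∀ g : G, (∀ s, g • s ∈ A' ↔ s ∈ A') → IsOfFinOrder g) → LocMoves.{w} x) ∧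
    -- integrable cocycles
    (∀ (G : Type u) (S : Type w) [Group G] [MeasurableSpace S] [MulAction G S] (μ : Measure S)
      [SigmaFinite μ] (σ : G → S → ℝ), (∀ g : G, MeasurePreserving (fun s : S => g • s) μ μ) →
      (∀ g, Integrable (σ g) μ) → (∀ g h, ∀ᵐ s ∂μ, σ (g * h) s = σ g (h • s) + σ h s) →
      ∀ (x : G) (B : Set S), MeasurableSet B → (fun s => x • s) ⁻¹' B = B →
        ∫ s in B, σ x s ∂μ ≠ 0 → LocMoves.{w} x) ∧
    -- cocycles of isometries of `CAT(0)` spaces, over measure preserving actions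
    (∀ (G : Type u) (S : Type v) (Y : Type w) [Group G] [MeasurableSpace S] [MulAction G S]
      [MetricSpace Y] [SecondCountableTopology Y] [MeasurableSpace Y] [BorelSpace Y]
      (μ : Measure S) (β : G → S → Y → Y) (o : Y), CN Y → IsoCocycle μ β o → ∀ (x : G) (ε : ℝ),
        0 < ε → (∀ n : ℕ, ε * n ≤ √(∫ s, dist o (β (x ^ n) s o) ^ 2 ∂μ)) → LocMoves.{w} x) ∧
    -- the same for measures which are only invariant under the centralizer
    (∀ (G : Type u) (S Y : Type w) [Group G] [MeasurableSpace S] [MulAction G S]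
      [MetricSpace Y] [SecondCountableTopology Y] [MeasurableSpace Y] [BorelSpace Y]
      (β : G → S → Y → Y) (o : Y), CN Y → (∀ s y, β 1 s y = y) →
      (∀ g h s y, β (g * h) s y = β g (h • s) (β h s y)) →
      (∀ g s a b, dist (β g s a) (β g s b) = dist a b) →
      (∀ g, Measurable fun q : S × Y => β g q.1 q.2) →
      (∀ g, BddAbove (Set.range fun s => dist o (β g s o))) →
      ∀ (x : G) (μ : Measure S) [IsFiniteMeasure μ],
        (∀ c, Commute c x → MeasurePreserving (fun s : S => c • s) μ μ) → ∀ ε : ℝ, 0 < ε →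
        (∀ n : ℕ, ε * n ≤ ∫ s, dist o (β (x ^ n) s o) ∂μ) → LocMoves.{w} x) ∧
    -- interval exchange transformations
    (∀ (G : Type u) [Group G] (ρ : G →* Equiv.Perm ℝ), (∀ g, IsIET (ρ g)) → ∀ x : G,
      ¬ IsOfFinOrder (ρ x) → LocMoves.{w} x) ∧
    -- diffeomorphisms of the circle
    (∀ (G : Type u) [Group G] [MulAction G (AddCircle (1 : ℝ))] (F : G → ℝ → ℝ),
      (∀ g (t : ℝ), ((F g t : ℝ) : AddCircle (1 : ℝ)) = g • (t : AddCircle (1 : ℝ))) →
      (∀ g, ContDiff ℝ 1 (F g)) → (∀ g t, deriv (F g) t ≠ 0) → ∀ (x : G) (k : ℕ) (t : ℝ),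
        0 < k → x ^ k • (t : AddCircle (1 : ℝ)) = t → |deriv (F (x ^ k)) t| ≠ 1 → LocMoves.{w} x) ∧
    -- the conjecture
    (∀ (G : Type u) [Group G], (∀ x : G, ¬ IsOfFinOrder x → Mild x ∨ LocMoves.{w} x) →
      SoftTor G ∨ LocFinTorsion G → L1Bass G) ∧
    -- relatively hyperbolic groups
    (∀ (G : Type u) (ι : Type v) [Group G] (H : ι → Subgroup G), IsRelHyp H →
      (∀ k, (∀ x : H k, ¬ IsOfFinOrder x → Mild x ∨ LocMoves.{w} x) ∧
        (SoftTor (H k) ∨ LocFinTorsion (H k))) → L1Bass G) ∧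
    -- products of arbitrary groups with torsion-free groups
    (∀ (G : Type u) (B : Type v) [Group G] [Group B], (∀ x : B, x ≠ 1 → LocMoves.{w} x) →
      (L1Bass (G × B) ↔ L1Bass G)) := by
  refine ⟨fun G _ x h => ⟨h.infOrder, h.vanishesAt⟩, fun G K _ _ f x h => h.hom f,
    fun G Y _ _ _ hY hiso x o h => ?_, fun G E _ _ _ _ _ hiso x o h => ?_,
    fun G S _ _ A hA x h => ?_, fun G S _ _ _ μ _ σ hmp hσ hco x B hB hBx hne => ?_,
    fun G S Y _ _ _ _ _ _ _ μ β o hY hβ x ε hε hx => moves_field hY hβ x hε hx,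
    fun G S Y _ _ _ _ _ _ _ β o hY h1 h2 h3 h4 h5 x μ _ hμ ε hε hx =>
      moves_sup hY h1 h2 h3 h4 h5 x hμ hε hx,
    fun G _ ρ hρ x hx => moves_iet ρ hρ hx, fun G _ _ F hF hF1 hF0 x k t hk hfix hne =>
      moves_of_charged (Vale.Agent.P184.M.circ_charged F hF hF1 hF0 x hk t hfix hne),
    fun G _ h htor => l1Bass_of_mild_moves h htor,
    fun G ι _ H hG h => relHyp_moves hG (fun k => (h k).1) fun k => (h k).2,
    fun G B _ _ h => bass_prod_moves h⟩
  · rcases h with ⟨ε, hε, h⟩ | ⟨h1, h2⟩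
    · exact moves_cat hY hiso x o hε h
    · exact moves_hyp hY hiso x o h1 h2
  · obtain ⟨ε, hε, h⟩ := h
    exact moves_banach hiso x o hε h
  · rcases h with h | ⟨h1, h2⟩
    · exact moves_wall A hA x h
    · exact moves_stab A hA h2 h1
  · exact moves_drift hmp σ hσ hco x hB hBx hne

end Vale.Agent.Results.P184.Displacement
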