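import Vale.Agent.P184.R2.H270.Top

namespace Vale.Agent.Results.P184.LinearAmenable

open Vale.Agent.P184.LA Vale.Agent.P184.W

universe u v w

/-- The `ℓ¹`-Bass conjecture and finite dimensional representations over arbitrary fields. -/
theorem result :
    -- vanishing at the elements satisfying `LocLin`, for arbitrary groups
    (∀ (G : Type u) [Group G] (x : G), LocLin.{w} x → ¬ IsOfFinOrder x ∧ VanishesAt x) ∧
    -- representations of degree at most three over fields and reduced rings
    (∀ (G : Type u) (R : Type w) [Group G] [CommRing R] [IsReduced R] (n : ℕ), n ≤ 3 →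
      ∀ (ρ : G →* (Matrix (Fin n) (Fin n) R)ˣ) (x : G), ¬ IsOfFinOrder (ρ x) → LocLin.{w} x) ∧
    -- representations of any degree over fields, Jordan blocks with different sizes
    (∀ (G : Type u) (K : Type w) [Group G] [Field K] (n : ℕ)
      (ρ : G →* (Matrix (Fin n) (Fin n) K)ˣ) (x : G), ¬ IsOfFinOrder (ρ x) →
        DiffBlocks (ρ x : Matrix (Fin n) (Fin n) K) → LocLin.{w} x) ∧
    -- the conjecture, if finitely generated subgroups have finitely many torsion classes
    (∀ (G : Type u) [Group G], (∀ x : G, ¬ IsOfFinOrder x → LocLin.{w} x) →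
      (∀ S : Finset G, {C : ConjClasses (Subgroup.closure (S : Set G)) |
        ∀ g ∈ C.carrier, IsOfFinOrder g}.Finite) → L1Bass G) ∧
    -- products of arbitrary groups with torsion-free groups
    (∀ (G : Type u) (B : Type v) [Group G] [Group B], (∀ x : B, x ≠ 1 → LocLin.{w} x) →
      (L1Bass (G × B) ↔ L1Bass G)) ∧
    -- relatively hyperbolic groups
    (∀ (G : Type u) (ι : Type v) [Group G] (H : ι → Subgroup G), IsRelHyp H →
      (∀ k, Group.FG (H k) ∧ (∀ x : H k, ¬ IsOfFinOrder x → LocLin.{w} x) ∧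
        {C : ConjClasses (H k) | ∀ g ∈ C.carrier, IsOfFinOrder g}.Finite) →
      Nice G ∧ L1Bass G) ∧
    -- maps to groups with property A, amenable image of the centralizer
    (∀ (G : Type u) (L : Type v) [Group G] [Group L] (f : G →* L) (x : G), PropertyA L →
      ¬ IsOfFinOrder (f x) → CoAmenable ((Cen x).map f) ⊥ → Mild x ∧ VanishesAt x) ∧
    -- property A
    (∀ N : ℕ, PropertyA (Matrix (Fin N) (Fin N) ℚ)ˣ) := by
  refine ⟨fun G _ x h => ⟨h.infOrder, h.vanishesAt⟩,
    fun G R _ _ _ n hn ρ x hx => locLin_of_ring hn ρ hx,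
    fun G K _ _ n ρ x hx h => (lin_of_blocks ρ hx h).loc,
    fun G _ h hfin => l1Bass_of_lin h hfin, fun G B _ _ h => bass_prod_lin h,
    fun G ι _ H hH h => ?_, fun G L _ _ f x hL hx ha => ?_, fun N => propA_glq N⟩
  · have h1 := relHyp_lin hH (fun k => (h k).1) (fun k => (h k).2.1) fun k => (h k).2.2
    exact ⟨h1, l1Bass_of_nice h1⟩
  · have h1 := mild_of_propA f hL hx ha
    exact ⟨h1, vanishesAt_of_mild h1⟩

end Vale.Agent.Results.P184.LinearAmenable
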