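import Vale.Agent.P184.R2.H270M.LyTop

/-!
# Traces of idempotents over `ℓ¹(G)`, Lyapunov exponents and rotation vectors
-/

namespace Vale.Agent.Results.P184.Lyapunov

open MeasureTheory Vale.Agent.P184.Pn
open Vale.Agent.P184 (Charged LocFinTorsion)
open Vale.Agent.P184.W (VanishesAt L1Bass Mild IsRelHyp)
open Vale.Agent.P184.H940 (SoftTor)
open Vale.Agent.P184.Mv (LocMoves)

universe u v w

/-- The `ℓ¹`-Bass conjecture at elements with nonzero Lyapunov exponents, or with several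
rotation vectors. -/
theorem result :
    -- charged elements
    (∀ (G : Type u) [Group G] (x : G), Charged x →
      LocMoves.{w} x ∧ ¬ IsOfFinOrder x ∧ VanishesAt x) ∧
    -- bounded matrix cocycles, measures invariant under the centralizer
    (∀ (G : Type u) (S : Type v) [Group G] [MeasurableSpace S] [MulAction G S] (n : ℕ)
      (A : G → S → (Matrix (Fin n) (Fin n) ℂ)ˣ),
      (∀ g h s, A (g * h) s = A g (h • s) * A h s) →
      (∀ g i j, Measurable fun s => (A g s : Matrix (Fin n) (Fin n) ℂ) i j) →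
      (∀ g, ∃ K, ∀ s, size (A g s) ≤ K) → ∀ (x : G) (μ : Measure S) [IsFiniteMeasure μ],
        (∀ c, Commute c x → MeasurePreserving (fun s : S => c • s) μ μ) →
        ∀ ε C : ℝ, 0 < ε → (∀ m : ℕ, ε * m - C ≤ ∫ s, Real.log (size (A (x ^ m) s)) ∂μ) →
          Charged x) ∧
    -- square integrable matrix cocycles, invariant measures
    (∀ (G : Type u) (S : Type v) [Group G] [MeasurableSpace S] [MulAction G S] (n : ℕ)
      (A : G → S → (Matrix (Fin n) (Fin n) ℂ)ˣ),
      (∀ g h s, A (g * h) s = A g (h • s) * A h s) →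
      (∀ g i j, Measurable fun s => (A g s : Matrix (Fin n) (Fin n) ℂ) i j) →
      ∀ (μ : Measure S) [IsFiniteMeasure μ],
        (∀ g : G, MeasurePreserving (fun s : S => g • s) μ μ) →
        (∀ g, Integrable (fun s => Real.log (size (A g s)) ^ 2) μ) → ∀ (x : G) (ε C : ℝ), 0 < ε →
          (∀ m : ℕ, ε * m - C ≤ ∫ s, Real.log (size (A (x ^ m) s)) ∂μ) → Charged x) ∧
    -- diffeomorphisms of the torus
    (∀ (G : Type u) [Group G] (d : ℕ) [MulAction G (Fin d → AddCircle (1 : ℝ))]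
      (F : G → (Fin d → ℝ) → Fin d → ℝ), (∀ g t, pr (F g t) = g • pr t) →
      (∀ g, ContDiff ℝ 1 (F g)) →
      ∀ (x : G) (μ : Measure (Fin d → AddCircle (1 : ℝ))) [IsFiniteMeasure μ],
        (∀ c, Commute c x →
          MeasurePreserving (fun s : Fin d → AddCircle (1 : ℝ) => c • s) μ μ) →
        ∀ ε C : ℝ, 0 < ε →
          (∀ m : ℕ, ε * m - C ≤ ∫ s, Real.log ‖fderiv ℝ (F (x ^ m)) (lift s)‖ ∂μ) →
            Charged x) ∧
    -- cocycles up to constants
    (∀ (G : Type u) (S : Type v) [Group G] [MeasurableSpace S] [MulAction G S]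
      (σ : G → S → ℝ) (k : G → G → ℝ), (∀ g h s, σ (g * h) s = σ g (h • s) + σ h s + k g h) →
      (∀ g, Measurable (σ g)) → (∀ g, ∃ K, ∀ s, |σ g s| ≤ K) →
      ∀ (x : G) (μ ν : Measure S) [IsProbabilityMeasure μ] [IsProbabilityMeasure ν],
        (∀ c, Commute c x → MeasurePreserving (fun s : S => c • s) μ μ) →
        (∀ c, Commute c x → MeasurePreserving (fun s : S => c • s) ν ν) →
        ∫ s, σ x s ∂μ ≠ ∫ s, σ x s ∂ν → Charged x) ∧
    -- homeomorphisms of the torus isotopic to the identity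
    (∀ (G : Type u) [Group G] (d : ℕ) [MulAction G (Fin d → AddCircle (1 : ℝ))]
      (F : G → (Fin d → ℝ) → Fin d → ℝ), (∀ g t, pr (F g t) = g • pr t) →
      (∀ g, Continuous (F g)) → (∀ g t k, pr k = 0 → F g (t + k) = F g t + k) →
      ∀ (x : G) (μ ν : Measure (Fin d → AddCircle (1 : ℝ))) [IsProbabilityMeasure μ]
        [IsProbabilityMeasure ν],
        (∀ c, Commute c x →
          MeasurePreserving (fun s : Fin d → AddCircle (1 : ℝ) => c • s) μ μ) →
        (∀ c, Commute c x →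
          MeasurePreserving (fun s : Fin d → AddCircle (1 : ℝ) => c • s) ν ν) →
        ∀ i : Fin d, ∫ s, (F x (lift s) i - lift s i) ∂μ ≠ ∫ s, (F x (lift s) i - lift s i) ∂ν →
          Charged x) ∧
    -- the conjecture
    (∀ (G : Type u) [Group G], (∀ x : G, ¬ IsOfFinOrder x → Mild x ∨ LocMoves.{w} x) →
      SoftTor G ∨ LocFinTorsion G → L1Bass G) := by
  refine ⟨fun G _ x h => charged_all h, fun G S _ _ _ n A h1 h2 hb x μ _ hμ ε C hε hx => ?_,
    fun G S _ _ _ n A h1 h2 μ _ hμ hint x ε C hε hx =>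
      lyap_charged' (coc_of h1 h2) x hμ hint hε hx,
    fun G _ d _ F h1 h2 x μ _ hμ ε C hε hx =>
      torus_charged (F := F) ⟨h1, fun g => (h2 g).continuous⟩ h2 x hμ hε hx,
    fun G S _ _ _ σ k h1 h2 h3 x μ ν _ _ hμ hν hne => rot_charged h1 h2 h3 x hμ hν hne,
    fun G _ d _ F h1 h2 h3 x μ ν _ _ hμ hν i hne =>
      torus_rot (F := F) ⟨h1, h2⟩ h3 x hμ hν i hne,
    fun G _ h htor => Vale.Agent.P184.Mv.l1Bass_of_mild_moves h htor⟩
  refine lyap_charged (coc_of h1 h2) (fun g => ?_) x hμ hε hx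
  obtain ⟨K, hK⟩ := hb g
  exact ⟨K, fun s i j => (entries_of_size _ i j).trans (hK s)⟩

end Vale.Agent.Results.P184.Lyapunov
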