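import Vale.Agent.P184.R2.H940.Main
import Vale.Agent.P184.R2.H940.Amen

/-!
# Vanishing of traces at elements of at most quadratic distortion, and consequences for the
`ℓ¹`-Bass conjecture
-/

namespace Vale.Agent.Results.P184.QuadCharged

open Vale.Agent.P184.H940
open Vale.Agent.P184 (LocFinTorsion)
open Vale.Agent.P184.W (CoAmenable Cen IsRelHyp VanishesAt L1Bass)

universe u v

/-- Traces vanish at classes with almost cocycles, in particular if the centralizer of `x` has a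
real character, not zero at `x`, of at most quadratic growth with respect to a subadditive function
on the whole group; and the `ℓ¹`-Bass conjecture follows for new groups. -/
theorem result :
    (∀ (G : Type u) [Group G] (x : G), (WCharged x → AlmostCoc x) ∧
      (AlmostCoc x → VanishesAt x)) ∧
    (∀ (G : Type u) [Group G] (x : G) (L ψ : G → ℝ) (C : ℝ), (∀ g, 0 ≤ L g) →
      (∀ g h, L (g * h) ≤ L g + L h) →
      (∀ g h, Commute g x → Commute h x → ψ (g * h) = ψ g + ψ h) →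
      (∀ g, Commute g x → ψ g ≤ C * L g ^ 2) → ψ x ≠ 0 → WCharged x) ∧
    (∀ (G : Type u) [Group G] (x : G) (L : G → ℝ) (w : ℕ → ℝ),
      (∀ g h, L (g * h) ≤ L g + L h) → (∀ n, 0 < w n) → Monotone w →
      (¬ Summable fun n => 1 / w n) →
      ((Subgroup.zpowers (⟨x, Subgroup.mem_centralizer_singleton_iff.2 rfl⟩ :
          Subgroup.centralizer ({x} : Set G))).FiniteIndex ∧
        (∀ n : ℤ, (n : ℝ) ≤ ∑ j ∈ Finset.range ⌈L (x ^ n)⌉₊, w j)) ∨
      (CoAmenable (Cen x) ⊥ ∧ ∃ N : G → ℝ,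
        (∀ g h, Commute g x → Commute h x → N (g * h) ≤ N g + N h) ∧
        (∀ n : ℤ, (n : ℝ) ≤ N (x ^ n)) ∧
        ∀ g, Commute g x → N g ≤ ∑ j ∈ Finset.range ⌈L g⌉₊, w j) → WCharged x) ∧
    (∀ (G : Type u) [Group G] (x : G), (∀ (S : Finset G) (hx : x ∈ Subgroup.closure (S : Set G)),
      AlmostCoc (⟨x, hx⟩ : Subgroup.closure (S : Set G))) → AlmostCoc x) ∧
    (∀ (G : Type u) [Group G] (K : Type v) [Group K] (H : Subgroup G) (f : H →* K) (x : G) (k : ℕ)
      (hx : x ^ k ∈ H), H.FiniteIndex → 0 < k → AlmostCoc (f ⟨x ^ k, hx⟩) → AlmostCoc x) ∧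
    (∀ (G : Type u) [Group G], (SoftInf G → SoftTor G → L1Bass G) ∧
      (LocFinTorsion G → SoftTor G)) ∧
    (∀ (G : Type u) [Group G] (ι : Type v) (H : ι → Subgroup G), IsRelHyp H →
      ((∀ k, SoftInf (H k)) → SoftInf G) ∧ ((∀ k, SoftTor (H k)) → SoftTor G)) ∧
    (∀ (G : Type u) [Group G] (K : Type v) [Group K], (SoftInf G → SoftInf K → SoftInf (G × K)) ∧
      (SoftTor G → SoftTor K → SoftTor (G × K))) := by
  refine ⟨fun G _ x => ⟨fun h => h.almostCoc, fun h => vanishesAt_of_almostCoc h⟩,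
    fun G _ x L ψ C h1 h2 h3 h4 h5 => wCharged_of_quad h1 h2 h3 h4 h5,
    fun G _ x L w h1 h2 h3 h4 h => ?_, fun G _ x h => almostCoc_of_local h,
    fun G _ K _ H f x k hx hH hk h => ?_, fun G _ => ⟨l1Bass_of_soft, softTor_of_finite⟩,
    fun G _ ι H hG => ⟨relHyp_softInf hG, relHyp_softTor hG⟩,
    fun G _ K _ => ⟨softInf_prod, softTor_prod⟩⟩
  · rcases h with ⟨h5, h6⟩ | ⟨h5, N, h6, h7, h8⟩
    · exact wCharged_of_cyc h5 h1 h2 h3 h4 h6
    · exact wCharged_of_amen h5 h1 h6 h7 h2 h3 h4 h8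
  · have h1 : AlmostCoc (⟨x ^ k, hx⟩ : H) := AlmostCoc.hom f h
    exact AlmostCoc.of_pow hk (AlmostCoc.of_index h1)

end Vale.Agent.Results.P184.QuadCharged
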